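import Vale.Agent.P233.H326.Fin3

/-!
# P233: distributional sectional curvature bounds and Alexandrov spaces
-/

open MeasureTheory
open scoped MeasureTheory

universe u

namespace Vale.Agent.Results.P233.AlexandrovSectional

open Vale.Agent.P233

/-- Question 1 of Gigli: a complete separable metric space is an `n`-dimensional Alexandrov space
with curvature `≥ κ` if and only if, with `m = ℋⁿ`, it has full support, is `RCD((n-1)κ,n)` and has
distributional sectional curvature `≥ κ`. -/
theorem result (M : Type u) [MetricSpace M] [CompleteSpace M] [SecondCountableTopology M]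
    [MeasurableSpace M] [BorelSpace M] (n : ℕ) (hn : 2 ≤ n) (κ : ℝ) :
    T.IsAlexN M n κ ↔ CD.IsSecN M n κ :=
  H326.Fin.finalCD M n hn κ

end Vale.Agent.Results.P233.AlexandrovSectional
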